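import Mathlib

/-!
# S0453, WP-E2: the abstract two-pair lemma (PROOF.md section 5)

Counting sums over finite sets only; no measures.  `helper89`.

* `prod_cell_nonneg` : product fibre (block sum `m ≠ 2`).
* `cross_ineq`       : the diamond fibre (`m = 2`) in explicit "cross" coordinates.
-/

namespace Crest.Agent.Helper89.SW

open Finset

section Cell

variable {ξ υ : Type*}

/-- Expansion of a product-cell sum. -/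
theorem cell_expand (P : Finset ξ) (Q : Finset υ) (f : ξ → υ → ℝ) (φ : υ → ℝ) (ψ : ξ → ℝ) :
    ∑ x ∈ P, ∑ y ∈ Q, (f x y - φ y) * (f x y - ψ x)
      = ∑ x ∈ P, ∑ y ∈ Q, f x y ^ 2 - ∑ y ∈ Q, φ y * ∑ x ∈ P, f x y
        - ∑ x ∈ P, ψ x * ∑ y ∈ Q, f x y + (∑ y ∈ Q, φ y) * ∑ x ∈ P, ψ x := by
  have h1 : ∀ x ∈ P, ∑ y ∈ Q, (f x y - φ y) * (f x y - ψ x)
      = ∑ y ∈ Q, f x y ^ 2 - ∑ y ∈ Q, φ y * f x y - ψ x * ∑ y ∈ Q, f x y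
        + (∑ y ∈ Q, φ y) * ψ x := by
    intro x _
    rw [Finset.mul_sum, Finset.sum_mul, ← Finset.sum_sub_distrib, ← Finset.sum_sub_distrib,
      ← Finset.sum_add_distrib]
    exact Finset.sum_congr rfl (fun y _ => by ring)
  rw [Finset.sum_congr rfl h1, Finset.sum_add_distrib, Finset.sum_sub_distrib,
    Finset.sum_sub_distrib, ← Finset.mul_sum]
  have h2 : ∑ x ∈ P, ∑ y ∈ Q, φ y * f x y = ∑ y ∈ Q, φ y * ∑ x ∈ P, f x y := by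
    rw [Finset.sum_comm]
    exact Finset.sum_congr rfl (fun y _ => by rw [Finset.mul_sum])
  rw [h2]

/-- `∑ (g - m)² = ∑ g² - 2 m ∑ g + card * m²`. -/
theorem sum_sq_sub_const {ι : Type*} (s : Finset ι) (g : ι → ℝ) (m : ℝ) :
    ∑ i ∈ s, (g i - m) ^ 2 = ∑ i ∈ s, g i ^ 2 - 2 * m * ∑ i ∈ s, g i + s.card * m ^ 2 := by
  have h : ∀ i ∈ s, (g i - m) ^ 2 = g i ^ 2 - 2 * m * g i + m ^ 2 := fun i _ => by ring
  rw [Finset.sum_congr rfl h, Finset.sum_add_distrib, Finset.sum_sub_distrib, ← Finset.mul_sum,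
    Finset.sum_const, nsmul_eq_mul]

/-- Bessel inequality on a product cell (row sums and column sums). -/
theorem bessel_cell (P : Finset ξ) (Q : Finset υ) (f : ξ → υ → ℝ) :
    ∑ y ∈ Q, (∑ x ∈ P, f x y) ^ 2 / (P.card : ℝ) + ∑ x ∈ P, (∑ y ∈ Q, f x y) ^ 2 / (Q.card : ℝ)
      - (∑ x ∈ P, ∑ y ∈ Q, f x y) ^ 2 / ((P.card : ℝ) * Q.card)
      ≤ ∑ x ∈ P, ∑ y ∈ Q, f x y ^ 2 := by
  rcases Finset.eq_empty_or_nonempty P with hP | hP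
  · subst hP; simp
  rcases Finset.eq_empty_or_nonempty Q with hQ | hQ
  · subst hQ; simp
  have hp : (0 : ℝ) < P.card := by exact_mod_cast Finset.card_pos.mpr hP
  have hq : (0 : ℝ) < Q.card := by exact_mod_cast Finset.card_pos.mpr hQ
  -- step (a): split off the row means
  have ha : ∀ x ∈ P, ∑ y ∈ Q, f x y ^ 2
      = ∑ y ∈ Q, (f x y - (∑ y ∈ Q, f x y) / (Q.card : ℝ)) ^ 2
        + (∑ y ∈ Q, f x y) ^ 2 / (Q.card : ℝ) := by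
    intro x _
    rw [sum_sq_sub_const]
    field_simp
    ring
  -- step (b): Cauchy–Schwarz in the column direction
  have hb : ∀ y ∈ Q, (∑ x ∈ P, f x y - (∑ x ∈ P, ∑ y ∈ Q, f x y) / (Q.card : ℝ)) ^ 2 / (P.card : ℝ)
      ≤ ∑ x ∈ P, (f x y - (∑ y ∈ Q, f x y) / (Q.card : ℝ)) ^ 2 := by
    intro y _
    have hcs := sq_sum_le_card_mul_sum_sq (s := P)
      (f := fun x => f x y - (∑ y ∈ Q, f x y) / (Q.card : ℝ))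
    have hsum : ∑ x ∈ P, (f x y - (∑ y ∈ Q, f x y) / (Q.card : ℝ))
        = ∑ x ∈ P, f x y - (∑ x ∈ P, ∑ y ∈ Q, f x y) / (Q.card : ℝ) := by
      rw [Finset.sum_sub_distrib, Finset.sum_div]
    rw [hsum] at hcs
    rw [div_le_iff₀ hp]
    linarith
  have hc : ∑ y ∈ Q, (∑ x ∈ P, f x y - (∑ x ∈ P, ∑ y ∈ Q, f x y) / (Q.card : ℝ)) ^ 2
      = ∑ y ∈ Q, (∑ x ∈ P, f x y) ^ 2 - (∑ x ∈ P, ∑ y ∈ Q, f x y) ^ 2 / (Q.card : ℝ) := by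
    rw [sum_sq_sub_const, Finset.sum_comm (s := Q) (t := P)]
    field_simp
    ring
  calc ∑ y ∈ Q, (∑ x ∈ P, f x y) ^ 2 / (P.card : ℝ)
        + ∑ x ∈ P, (∑ y ∈ Q, f x y) ^ 2 / (Q.card : ℝ)
        - (∑ x ∈ P, ∑ y ∈ Q, f x y) ^ 2 / ((P.card : ℝ) * Q.card)
      = (∑ y ∈ Q, (∑ x ∈ P, f x y - (∑ x ∈ P, ∑ y ∈ Q, f x y) / (Q.card : ℝ)) ^ 2) / (P.card : ℝ)
        + ∑ x ∈ P, (∑ y ∈ Q, f x y) ^ 2 / (Q.card : ℝ) := by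
        rw [hc, ← Finset.sum_div]
        field_simp
        ring
    _ = ∑ y ∈ Q, (∑ x ∈ P, f x y - (∑ x ∈ P, ∑ y ∈ Q, f x y) / (Q.card : ℝ)) ^ 2 / (P.card : ℝ)
        + ∑ x ∈ P, (∑ y ∈ Q, f x y) ^ 2 / (Q.card : ℝ) := by
        rw [Finset.sum_div]
    _ ≤ ∑ y ∈ Q, ∑ x ∈ P, (f x y - (∑ y ∈ Q, f x y) / (Q.card : ℝ)) ^ 2
        + ∑ x ∈ P, (∑ y ∈ Q, f x y) ^ 2 / (Q.card : ℝ) := by
        gcongr with y hy
        exact hb y hy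
    _ = ∑ x ∈ P, ∑ y ∈ Q, f x y ^ 2 := by
        rw [Finset.sum_comm, ← Finset.sum_add_distrib]
        exact Finset.sum_congr rfl (fun x hx => (ha x hx).symm)

/-- **(E2a) product fibre.**  For a product set `P × Q` with the two class structures
"same `y`" and "same `x`":  `∑ (f - avg_x f)(f - avg_y f) ≥ 0`. -/
theorem prod_cell_nonneg (P : Finset ξ) (Q : Finset υ) (f : ξ → υ → ℝ) :
    0 ≤ ∑ x ∈ P, ∑ y ∈ Q, (f x y - (∑ x' ∈ P, f x' y) / (P.card : ℝ))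
        * (f x y - (∑ y' ∈ Q, f x y') / (Q.card : ℝ)) := by
  rw [cell_expand]
  have hb := bessel_cell P Q f
  have h1 : ∑ y ∈ Q, (∑ x' ∈ P, f x' y) / (P.card : ℝ) * ∑ x ∈ P, f x y
      = ∑ y ∈ Q, (∑ x ∈ P, f x y) ^ 2 / (P.card : ℝ) :=
    Finset.sum_congr rfl (fun y _ => by ring)
  have h2 : ∑ x ∈ P, (∑ y' ∈ Q, f x y') / (Q.card : ℝ) * ∑ y ∈ Q, f x y
      = ∑ x ∈ P, (∑ y ∈ Q, f x y) ^ 2 / (Q.card : ℝ) :=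
    Finset.sum_congr rfl (fun x _ => by ring)
  have h3 : (∑ y ∈ Q, (∑ x' ∈ P, f x' y) / (P.card : ℝ)) * ∑ x ∈ P, (∑ y' ∈ Q, f x y') / (Q.card : ℝ)
      = (∑ x ∈ P, ∑ y ∈ Q, f x y) ^ 2 / ((P.card : ℝ) * Q.card) := by
    rw [← Finset.sum_div, ← Finset.sum_div, Finset.sum_comm (s := Q) (t := P)]
    rw [div_mul_div_comm]
    ring
  rw [h1, h2, h3]
  linarith

end Cell

section Side

variable {υ : Type*}

/-- One side (the `y`-side) of the diamond computation: Jensen for the positive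
semidefinite quadratic form in the column sums `(KV y, KS y)`. -/
theorem side_ineq (Y : Finset υ) (KV KS : υ → ℝ) (a av : ℝ) (ha : 0 < a) (hav : 0 ≤ av)
    (hKV : av = 0 → ∀ y ∈ Y, KV y = 0) (hY : Y.Nonempty) :
    ((∑ y ∈ Y, KS y) ^ 2 / a - 2 * (∑ y ∈ Y, KV y + ∑ y ∈ Y, KS y) ^ 2 / (av + 2 * a)
        + (av * ∑ y ∈ Y, KS y - 2 * a * ∑ y ∈ Y, KV y) ^ 2 / (2 * a * (av + 2 * a) ^ 2))
          / (Y.card : ℝ)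
      ≤ ∑ y ∈ Y, (2 * KV y ^ 2 / av + KS y ^ 2 / a
            - 2 * ((KV y + KS y) / (av + 2 * a)) * (KV y + KS y)
            + 2 * a * (KS y / (2 * a) - (KV y + KS y) / (av + 2 * a)) ^ 2)
          - 2 * (∑ y ∈ Y, KV y) ^ 2 / (av * (Y.card : ℝ)) := by
  have hc : (0 : ℝ) < Y.card := by exact_mod_cast Finset.card_pos.mpr hY
  rcases hav.eq_or_lt with h0 | hpos
  · -- `av = 0`
    have hKV0 := hKV h0.symm
    have hσ : ∑ y ∈ Y, KV y = 0 := Finset.sum_eq_zero hKV0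
    have hterm : ∀ y ∈ Y, (2 * KV y ^ 2 / av + KS y ^ 2 / a
            - 2 * ((KV y + KS y) / (av + 2 * a)) * (KV y + KS y)
            + 2 * a * (KS y / (2 * a) - (KV y + KS y) / (av + 2 * a)) ^ 2) = 0 := by
      intro y hy
      rw [hKV0 y hy, ← h0]
      field_simp
      ring
    rw [Finset.sum_eq_zero hterm, hσ, ← h0]
    have : ((∑ y ∈ Y, KS y) ^ 2 / a - 2 * (0 + ∑ y ∈ Y, KS y) ^ 2 / (0 + 2 * a)
        + (0 * ∑ y ∈ Y, KS y - 2 * a * 0) ^ 2 / (2 * a * (0 + 2 * a) ^ 2)) = 0 := by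
      field_simp
      ring
    rw [this]
    simp
  · -- `0 < av`
    have hnv : 0 < av + 2 * a := by linarith
    set κ : ℝ := 1 / (a * av * (av + 2 * a)) + 1 / (2 * a * (av + 2 * a) ^ 2) with hκ
    have hκpos : 0 < κ := by positivity
    have hterm : ∀ y ∈ Y, (2 * KV y ^ 2 / av + KS y ^ 2 / a
            - 2 * ((KV y + KS y) / (av + 2 * a)) * (KV y + KS y)
            + 2 * a * (KS y / (2 * a) - (KV y + KS y) / (av + 2 * a)) ^ 2)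
          = κ * (2 * a * KV y - av * KS y) ^ 2 := by
      intro y _
      rw [hκ]
      field_simp
      ring
    rw [Finset.sum_congr rfl hterm, ← Finset.mul_sum]
    have hcs := sq_sum_le_card_mul_sum_sq (s := Y) (f := fun y => 2 * a * KV y - av * KS y)
    have hsum : ∑ y ∈ Y, (2 * a * KV y - av * KS y)
        = 2 * a * ∑ y ∈ Y, KV y - av * ∑ y ∈ Y, KS y := by
      rw [Finset.sum_sub_distrib, ← Finset.mul_sum, ← Finset.mul_sum]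
    rw [hsum] at hcs
    have hcs' : (2 * a * ∑ y ∈ Y, KV y - av * ∑ y ∈ Y, KS y) ^ 2 / (Y.card : ℝ)
        ≤ ∑ y ∈ Y, (2 * a * KV y - av * KS y) ^ 2 := by
      rw [div_le_iff₀ hc]
      linarith
    have hid : ((∑ y ∈ Y, KS y) ^ 2 / a - 2 * (∑ y ∈ Y, KV y + ∑ y ∈ Y, KS y) ^ 2 / (av + 2 * a)
        + (av * ∑ y ∈ Y, KS y - 2 * a * ∑ y ∈ Y, KV y) ^ 2 / (2 * a * (av + 2 * a) ^ 2))
          / (Y.card : ℝ)
        = κ * ((2 * a * ∑ y ∈ Y, KV y - av * ∑ y ∈ Y, KS y) ^ 2 / (Y.card : ℝ))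
          - 2 * (∑ y ∈ Y, KV y) ^ 2 / (av * (Y.card : ℝ)) := by
      rw [hκ]
      field_simp
      ring
    rw [hid]
    have := mul_le_mul_of_nonneg_left hcs' hκpos.le
    linarith

end Side

section Cross

variable {ξ ξv υ υh : Type*}

/-- **(E2b) diamond fibre in explicit cross coordinates.**
Cells: vertical arm `Xv × Y` (values `fV`), horizontal arm `X × Yh` (values `fH`), centre
`X × Y × {+,-}` (values `fP`, `fM`).  `qv y` is the average of the class "column `y`"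
(vertical arm and centre), `qh x` the average of the class "row `x`" (horizontal arm and centre),
`rv x'` the row average on the vertical arm, `kh y'` the column average on the horizontal arm. -/
theorem cross_ineq (X : Finset ξ) (Xv : Finset ξv) (Y : Finset υ) (Yh : Finset υh)
    (fV : ξv → υ → ℝ) (fH : ξ → υh → ℝ) (fP fM : ξ → υ → ℝ)
    (qv : υ → ℝ) (qh : ξ → ℝ) (rv : ξv → ℝ) (kh : υh → ℝ)
    (hqv : ∀ y ∈ Y, qv y = ((∑ x' ∈ Xv, fV x' y) + (∑ x ∈ X, (fP x y + fM x y))) / ((Xv.card : ℝ) + 2 * (X.card : ℝ)))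
    (hqh : ∀ x ∈ X, qh x = ((∑ y' ∈ Yh, fH x y') + (∑ y ∈ Y, (fP x y + fM x y))) / ((Yh.card : ℝ) + 2 * (Y.card : ℝ)))
    (hrv : ∀ x' ∈ Xv, rv x' = (∑ y ∈ Y, fV x' y) / (Y.card : ℝ))
    (hkh : ∀ y' ∈ Yh, kh y' = (∑ x ∈ X, fH x y') / (X.card : ℝ)) :
    (∑ x ∈ X, ∑ y ∈ Y, (fP x y - fM x y) ^ 2) - (∑ x ∈ X, ∑ y ∈ Y, 2 * ((∑ x ∈ X, (fP x y + fM x y)) / (2 * (X.card : ℝ)) - qv y) ^ 2) - (∑ x ∈ X, ∑ y ∈ Y, 2 * ((∑ y ∈ Y, (fP x y + fM x y)) / (2 * (Y.card : ℝ)) - qh x) ^ 2)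
      ≤ 2 * ((∑ x' ∈ Xv, ∑ y ∈ Y, (fV x' y - qv y) * (fV x' y - rv x')) + (∑ x ∈ X, ∑ y' ∈ Yh, (fH x y' - kh y') * (fH x y' - qh x)) + (∑ x ∈ X, ∑ y ∈ Y, ((fP x y - qv y) * (fP x y - qh x) + (fM x y - qv y) * (fM x y - qh x)))) := by
  rcases Finset.eq_empty_or_nonempty X with hX | hX
  · subst hX
    have h := prod_cell_nonneg Xv Y fV
    have e : (∑ x' ∈ Xv, ∑ y ∈ Y, (fV x' y - qv y) * (fV x' y - rv x'))
        = ∑ x' ∈ Xv, ∑ y ∈ Y, (fV x' y - (∑ x'' ∈ Xv, fV x'' y) / (Xv.card : ℝ))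
            * (fV x' y - (∑ y' ∈ Y, fV x' y') / (Y.card : ℝ)) := by
      refine Finset.sum_congr rfl (fun x' hx' => Finset.sum_congr rfl (fun y hy => ?_))
      rw [hqv y hy, hrv x' hx']
      simp
    simp only [Finset.sum_empty, sub_zero, add_zero]
    rw [e]
    linarith
  rcases Finset.eq_empty_or_nonempty Y with hY | hY
  · subst hY
    have h := prod_cell_nonneg X Yh fH
    have e : (∑ x ∈ X, ∑ y' ∈ Yh, (fH x y' - kh y') * (fH x y' - qh x))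
        = ∑ x ∈ X, ∑ y' ∈ Yh, (fH x y' - (∑ x'' ∈ X, fH x'' y') / (X.card : ℝ))
            * (fH x y' - (∑ y'' ∈ Yh, fH x y'') / (Yh.card : ℝ)) := by
      refine Finset.sum_congr rfl (fun x hx => Finset.sum_congr rfl (fun y' hy' => ?_))
      rw [hkh y' hy', hqh x hx]
      simp
    simp only [Finset.sum_empty, Finset.sum_const_zero, sub_zero, add_zero, zero_add]
    rw [e]
    linarith
  have ha : (0 : ℝ) < (X.card : ℝ) := by exact_mod_cast Finset.card_pos.mpr hX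
  have hc : (0 : ℝ) < (Y.card : ℝ) := by exact_mod_cast Finset.card_pos.mpr hY
  have hav : (0 : ℝ) ≤ (Xv.card : ℝ) := Nat.cast_nonneg _
  have hch : (0 : ℝ) ≤ (Yh.card : ℝ) := Nat.cast_nonneg _
  have hnv : (0 : ℝ) < ((Xv.card : ℝ) + 2 * (X.card : ℝ)) := by linarith
  have hnh : (0 : ℝ) < ((Yh.card : ℝ) + 2 * (Y.card : ℝ)) := by linarith
  -- expansions of the three cells
  have hVA : (∑ x' ∈ Xv, ∑ y ∈ Y, (fV x' y - qv y) * (fV x' y - rv x')) = (∑ x' ∈ Xv, ∑ y ∈ Y, fV x' y ^ 2) - (∑ y ∈ Y, qv y * (∑ x' ∈ Xv, fV x' y)) - (∑ x' ∈ Xv, (∑ y ∈ Y, fV x' y) ^ 2 / (Y.card : ℝ)) + (∑ y ∈ Y, qv y) * ((∑ x' ∈ Xv, ∑ y ∈ Y, fV x' y) / (Y.card : ℝ)) := by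
    rw [cell_expand]
    have e1 : ∑ x' ∈ Xv, rv x' * (∑ y ∈ Y, fV x' y) = (∑ x' ∈ Xv, (∑ y ∈ Y, fV x' y) ^ 2 / (Y.card : ℝ)) :=
      Finset.sum_congr rfl (fun x' hx' => by rw [hrv x' hx']; ring)
    have e2 : ∑ x' ∈ Xv, rv x' = (∑ x' ∈ Xv, ∑ y ∈ Y, fV x' y) / (Y.card : ℝ) := by
      rw [Finset.sum_div]
      exact Finset.sum_congr rfl (fun x' hx' => hrv x' hx')
    rw [e1, e2]
  have hHA : (∑ x ∈ X, ∑ y' ∈ Yh, (fH x y' - kh y') * (fH x y' - qh x)) = (∑ x ∈ X, ∑ y' ∈ Yh, fH x y' ^ 2) - (∑ y' ∈ Yh, (∑ x ∈ X, fH x y') ^ 2 / (X.card : ℝ)) - (∑ x ∈ X, qh x * (∑ y' ∈ Yh, fH x y')) + ((∑ x ∈ X, ∑ y' ∈ Yh, fH x y') / (X.card : ℝ)) * (∑ x ∈ X, qh x) := by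
    rw [cell_expand]
    have e1 : ∑ y' ∈ Yh, kh y' * (∑ x ∈ X, fH x y') = (∑ y' ∈ Yh, (∑ x ∈ X, fH x y') ^ 2 / (X.card : ℝ)) :=
      Finset.sum_congr rfl (fun y' hy' => by rw [hkh y' hy']; ring)
    have e2 : ∑ y' ∈ Yh, kh y' = (∑ x ∈ X, ∑ y' ∈ Yh, fH x y') / (X.card : ℝ) := by
      rw [Finset.sum_comm, Finset.sum_div]
      exact Finset.sum_congr rfl (fun y' hy' => hkh y' hy')
    rw [e1, e2]
  have hCZ : (∑ x ∈ X, ∑ y ∈ Y, ((fP x y - qv y) * (fP x y - qh x) + (fM x y - qv y) * (fM x y - qh x))) = (∑ x ∈ X, ∑ y ∈ Y, fP x y ^ 2) + (∑ x ∈ X, ∑ y ∈ Y, fM x y ^ 2) - (∑ y ∈ Y, qv y * (∑ x ∈ X, (fP x y + fM x y))) - (∑ x ∈ X, qh x * (∑ y ∈ Y, (fP x y + fM x y))) + 2 * ((∑ y ∈ Y, qv y) * (∑ x ∈ X, qh x)) := by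
    have e0 : (∑ x ∈ X, ∑ y ∈ Y, ((fP x y - qv y) * (fP x y - qh x) + (fM x y - qv y) * (fM x y - qh x))) = ∑ x ∈ X, ∑ y ∈ Y, (fP x y - qv y) * (fP x y - qh x)
        + ∑ x ∈ X, ∑ y ∈ Y, (fM x y - qv y) * (fM x y - qh x) := by
      rw [← Finset.sum_add_distrib]
      exact Finset.sum_congr rfl (fun x _ => Finset.sum_add_distrib)
    have e1 : (∑ y ∈ Y, qv y * (∑ x ∈ X, (fP x y + fM x y))) = ∑ y ∈ Y, qv y * ∑ x ∈ X, fP x y + ∑ y ∈ Y, qv y * ∑ x ∈ X, fM x y := by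
      rw [← Finset.sum_add_distrib]
      exact Finset.sum_congr rfl (fun y _ => by rw [Finset.sum_add_distrib]; ring)
    have e2 : (∑ x ∈ X, qh x * (∑ y ∈ Y, (fP x y + fM x y))) = ∑ x ∈ X, qh x * ∑ y ∈ Y, fP x y + ∑ x ∈ X, qh x * ∑ y ∈ Y, fM x y := by
      rw [← Finset.sum_add_distrib]
      exact Finset.sum_congr rfl (fun x _ => by rw [Finset.sum_add_distrib]; ring)
    rw [e0, cell_expand, cell_expand, e1, e2]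
    ring
  have hE : (∑ x ∈ X, ∑ y ∈ Y, (fP x y - fM x y) ^ 2) = 2 * (∑ x ∈ X, ∑ y ∈ Y, fP x y ^ 2) + 2 * (∑ x ∈ X, ∑ y ∈ Y, fM x y ^ 2) - (∑ x ∈ X, ∑ y ∈ Y, (fP x y + fM x y) ^ 2) := by
    have e : ∀ x ∈ X, ∑ y ∈ Y, (fP x y - fM x y) ^ 2
        = 2 * ∑ y ∈ Y, fP x y ^ 2 + 2 * ∑ y ∈ Y, fM x y ^ 2 - ∑ y ∈ Y, (fP x y + fM x y) ^ 2 := by
      intro x _
      rw [Finset.mul_sum, Finset.mul_sum, ← Finset.sum_add_distrib, ← Finset.sum_sub_distrib]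
      exact Finset.sum_congr rfl (fun y _ => by ring)
    rw [Finset.sum_congr rfl e, Finset.sum_sub_distrib, Finset.sum_add_distrib,
      ← Finset.mul_sum, ← Finset.mul_sum]
  -- Bessel on the three cells
  have hBV : (∑ y ∈ Y, (∑ x' ∈ Xv, fV x' y) ^ 2 / (Xv.card : ℝ)) + (∑ x' ∈ Xv, (∑ y ∈ Y, fV x' y) ^ 2 / (Y.card : ℝ)) - (∑ x' ∈ Xv, ∑ y ∈ Y, fV x' y) ^ 2 / ((Xv.card : ℝ) * (Y.card : ℝ)) ≤ (∑ x' ∈ Xv, ∑ y ∈ Y, fV x' y ^ 2) := bessel_cell Xv Y fV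
  have hBH : (∑ y' ∈ Yh, (∑ x ∈ X, fH x y') ^ 2 / (X.card : ℝ)) + (∑ x ∈ X, (∑ y' ∈ Yh, fH x y') ^ 2 / (Yh.card : ℝ)) - (∑ x ∈ X, ∑ y' ∈ Yh, fH x y') ^ 2 / ((X.card : ℝ) * (Yh.card : ℝ)) ≤ (∑ x ∈ X, ∑ y' ∈ Yh, fH x y' ^ 2) := bessel_cell X Yh fH
  have hBS : (∑ y ∈ Y, (∑ x ∈ X, (fP x y + fM x y)) ^ 2 / (X.card : ℝ)) + (∑ x ∈ X, (∑ y ∈ Y, (fP x y + fM x y)) ^ 2 / (Y.card : ℝ)) - (∑ x ∈ X, ∑ y ∈ Y, (fP x y + fM x y)) ^ 2 / ((X.card : ℝ) * (Y.card : ℝ)) ≤ (∑ x ∈ X, ∑ y ∈ Y, (fP x y + fM x y) ^ 2) :=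
    bessel_cell X Y (fun x y => fP x y + fM x y)
  -- the two sides
  have hYs : (((∑ x ∈ X, ∑ y ∈ Y, (fP x y + fM x y)) ^ 2 / (X.card : ℝ) - 2 * ((∑ x' ∈ Xv, ∑ y ∈ Y, fV x' y) + (∑ x ∈ X, ∑ y ∈ Y, (fP x y + fM x y))) ^ 2 / ((Xv.card : ℝ) + 2 * (X.card : ℝ)) + ((Xv.card : ℝ) * (∑ x ∈ X, ∑ y ∈ Y, (fP x y + fM x y)) - 2 * (X.card : ℝ) * (∑ x' ∈ Xv, ∑ y ∈ Y, fV x' y)) ^ 2 / (2 * (X.card : ℝ) * ((Xv.card : ℝ) + 2 * (X.card : ℝ)) ^ 2)) / (Y.card : ℝ)) ≤ 2 * (∑ y ∈ Y, (∑ x' ∈ Xv, fV x' y) ^ 2 / (Xv.card : ℝ)) + (∑ y ∈ Y, (∑ x ∈ X, (fP x y + fM x y)) ^ 2 / (X.card : ℝ)) - 2 * (∑ y ∈ Y, qv y * (∑ x' ∈ Xv, fV x' y)) - 2 * (∑ y ∈ Y, qv y * (∑ x ∈ X, (fP x y + fM x y))) + (∑ x ∈ X, ∑ y ∈ Y, 2 * ((∑ x ∈ X, (fP x y + fM x y)) / (2 * (X.card : ℝ)) - qv y) ^ 2)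
      - 2 * ((∑ x' ∈ Xv, ∑ y ∈ Y, fV x' y) ^ 2 / ((Xv.card : ℝ) * (Y.card : ℝ))) := by
    have h := side_ineq Y (fun y => (∑ x' ∈ Xv, fV x' y)) (fun y => (∑ x ∈ X, (fP x y + fM x y))) (X.card : ℝ) (Xv.card : ℝ) ha hav
      (fun h0 y _ => by
        have : Xv = ∅ := by
          have : Xv.card = 0 := by exact_mod_cast h0
          exact Finset.card_eq_zero.mp this
        subst this; simp) hY
    rw [Finset.sum_comm (s := Y) (t := Xv), Finset.sum_comm (s := Y) (t := X)] at h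
    have e : ∑ y ∈ Y, (2 * (∑ x' ∈ Xv, fV x' y) ^ 2 / (Xv.card : ℝ) + (∑ x ∈ X, (fP x y + fM x y)) ^ 2 / (X.card : ℝ) - 2 * (((∑ x' ∈ Xv, fV x' y) + (∑ x ∈ X, (fP x y + fM x y))) / ((Xv.card : ℝ) + 2 * (X.card : ℝ))) * ((∑ x' ∈ Xv, fV x' y) + (∑ x ∈ X, (fP x y + fM x y))) + 2 * (X.card : ℝ) * ((∑ x ∈ X, (fP x y + fM x y)) / (2 * (X.card : ℝ)) - ((∑ x' ∈ Xv, fV x' y) + (∑ x ∈ X, (fP x y + fM x y))) / ((Xv.card : ℝ) + 2 * (X.card : ℝ))) ^ 2)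
        = 2 * (∑ y ∈ Y, (∑ x' ∈ Xv, fV x' y) ^ 2 / (Xv.card : ℝ)) + (∑ y ∈ Y, (∑ x ∈ X, (fP x y + fM x y)) ^ 2 / (X.card : ℝ)) - 2 * (∑ y ∈ Y, qv y * (∑ x' ∈ Xv, fV x' y)) - 2 * (∑ y ∈ Y, qv y * (∑ x ∈ X, (fP x y + fM x y))) + (∑ x ∈ X, ∑ y ∈ Y, 2 * ((∑ x ∈ X, (fP x y + fM x y)) / (2 * (X.card : ℝ)) - qv y) ^ 2) := by
      have eA : ∑ y ∈ Y, 2 * (∑ x' ∈ Xv, fV x' y) ^ 2 / (Xv.card : ℝ) = 2 * (∑ y ∈ Y, (∑ x' ∈ Xv, fV x' y) ^ 2 / (Xv.card : ℝ)) := by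
        rw [Finset.mul_sum]; exact Finset.sum_congr rfl (fun y _ => by ring)
      have eC : ∑ y ∈ Y, 2 * (((∑ x' ∈ Xv, fV x' y) + (∑ x ∈ X, (fP x y + fM x y))) / ((Xv.card : ℝ) + 2 * (X.card : ℝ))) * ((∑ x' ∈ Xv, fV x' y) + (∑ x ∈ X, (fP x y + fM x y)))
          = 2 * (∑ y ∈ Y, qv y * (∑ x' ∈ Xv, fV x' y)) + 2 * (∑ y ∈ Y, qv y * (∑ x ∈ X, (fP x y + fM x y))) := by
        rw [Finset.mul_sum, Finset.mul_sum, ← Finset.sum_add_distrib]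
        exact Finset.sum_congr rfl (fun y hy => by rw [hqv y hy]; ring)
      have eD : ∑ y ∈ Y, 2 * (X.card : ℝ) * ((∑ x ∈ X, (fP x y + fM x y)) / (2 * (X.card : ℝ)) - ((∑ x' ∈ Xv, fV x' y) + (∑ x ∈ X, (fP x y + fM x y))) / ((Xv.card : ℝ) + 2 * (X.card : ℝ))) ^ 2 = (∑ x ∈ X, ∑ y ∈ Y, 2 * ((∑ x ∈ X, (fP x y + fM x y)) / (2 * (X.card : ℝ)) - qv y) ^ 2) := by
        rw [Finset.sum_const, nsmul_eq_mul, Finset.mul_sum]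
        exact Finset.sum_congr rfl (fun y hy => by rw [hqv y hy]; ring)
      rw [Finset.sum_add_distrib, Finset.sum_sub_distrib, Finset.sum_add_distrib, eA, eC, eD]
      ring
    rw [e, mul_div_assoc 2 ((∑ x' ∈ Xv, ∑ y ∈ Y, fV x' y) ^ 2)] at h
    exact h
  have hXs : (((∑ x ∈ X, ∑ y ∈ Y, (fP x y + fM x y)) ^ 2 / (Y.card : ℝ) - 2 * ((∑ x ∈ X, ∑ y' ∈ Yh, fH x y') + (∑ x ∈ X, ∑ y ∈ Y, (fP x y + fM x y))) ^ 2 / ((Yh.card : ℝ) + 2 * (Y.card : ℝ)) + ((Yh.card : ℝ) * (∑ x ∈ X, ∑ y ∈ Y, (fP x y + fM x y)) - 2 * (Y.card : ℝ) * (∑ x ∈ X, ∑ y' ∈ Yh, fH x y')) ^ 2 / (2 * (Y.card : ℝ) * ((Yh.card : ℝ) + 2 * (Y.card : ℝ)) ^ 2)) / (X.card : ℝ)) ≤ 2 * (∑ x ∈ X, (∑ y' ∈ Yh, fH x y') ^ 2 / (Yh.card : ℝ)) + (∑ x ∈ X, (∑ y ∈ Y, (fP x y + fM x y)) ^ 2 / (Y.card : ℝ)) - 2 * (∑ x ∈ X, qh x * (∑ y' ∈ Yh, fH x y')) - 2 * (∑ x ∈ X,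 qh x * (∑ y ∈ Y, (fP x y + fM x y))) + (∑ x ∈ X, ∑ y ∈ Y, 2 * ((∑ y ∈ Y, (fP x y + fM x y)) / (2 * (Y.card : ℝ)) - qh x) ^ 2)
      - 2 * ((∑ x ∈ X, ∑ y' ∈ Yh, fH x y') ^ 2 / ((X.card : ℝ) * (Yh.card : ℝ))) := by
    have h := side_ineq X (fun x => (∑ y' ∈ Yh, fH x y')) (fun x => (∑ y ∈ Y, (fP x y + fM x y))) (Y.card : ℝ) (Yh.card : ℝ) hc hch
      (fun h0 x _ => by
        have : Yh = ∅ := by
          have : Yh.card = 0 := by exact_mod_cast h0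
          exact Finset.card_eq_zero.mp this
        subst this; simp) hX
    have e : ∑ x ∈ X, (2 * (∑ y' ∈ Yh, fH x y') ^ 2 / (Yh.card : ℝ) + (∑ y ∈ Y, (fP x y + fM x y)) ^ 2 / (Y.card : ℝ) - 2 * (((∑ y' ∈ Yh, fH x y') + (∑ y ∈ Y, (fP x y + fM x y))) / ((Yh.card : ℝ) + 2 * (Y.card : ℝ))) * ((∑ y' ∈ Yh, fH x y') + (∑ y ∈ Y, (fP x y + fM x y))) + 2 * (Y.card : ℝ) * ((∑ y ∈ Y, (fP x y + fM x y)) / (2 * (Y.card : ℝ)) - ((∑ y' ∈ Yh, fH x y') + (∑ y ∈ Y, (fP x y + fM x y))) / ((Yh.card : ℝ) + 2 * (Y.card : ℝ))) ^ 2)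
        = 2 * (∑ x ∈ X, (∑ y' ∈ Yh, fH x y') ^ 2 / (Yh.card : ℝ)) + (∑ x ∈ X, (∑ y ∈ Y, (fP x y + fM x y)) ^ 2 / (Y.card : ℝ)) - 2 * (∑ x ∈ X, qh x * (∑ y' ∈ Yh, fH x y')) - 2 * (∑ x ∈ X, qh x * (∑ y ∈ Y, (fP x y + fM x y))) + (∑ x ∈ X, ∑ y ∈ Y, 2 * ((∑ y ∈ Y, (fP x y + fM x y)) / (2 * (Y.card : ℝ)) - qh x) ^ 2) := by
      have eA : ∑ x ∈ X, 2 * (∑ y' ∈ Yh, fH x y') ^ 2 / (Yh.card : ℝ) = 2 * (∑ x ∈ X, (∑ y' ∈ Yh, fH x y') ^ 2 / (Yh.card : ℝ)) := by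
        rw [Finset.mul_sum]; exact Finset.sum_congr rfl (fun x _ => by ring)
      have eC : ∑ x ∈ X, 2 * (((∑ y' ∈ Yh, fH x y') + (∑ y ∈ Y, (fP x y + fM x y))) / ((Yh.card : ℝ) + 2 * (Y.card : ℝ))) * ((∑ y' ∈ Yh, fH x y') + (∑ y ∈ Y, (fP x y + fM x y)))
          = 2 * (∑ x ∈ X, qh x * (∑ y' ∈ Yh, fH x y')) + 2 * (∑ x ∈ X, qh x * (∑ y ∈ Y, (fP x y + fM x y))) := by
        rw [Finset.mul_sum, Finset.mul_sum, ← Finset.sum_add_distrib]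
        exact Finset.sum_congr rfl (fun x hx => by rw [hqh x hx]; ring)
      have eD : ∑ x ∈ X, 2 * (Y.card : ℝ) * ((∑ y ∈ Y, (fP x y + fM x y)) / (2 * (Y.card : ℝ)) - ((∑ y' ∈ Yh, fH x y') + (∑ y ∈ Y, (fP x y + fM x y))) / ((Yh.card : ℝ) + 2 * (Y.card : ℝ))) ^ 2 = (∑ x ∈ X, ∑ y ∈ Y, 2 * ((∑ y ∈ Y, (fP x y + fM x y)) / (2 * (Y.card : ℝ)) - qh x) ^ 2) := by
        refine Finset.sum_congr rfl (fun x hx => ?_)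
        rw [Finset.sum_const, nsmul_eq_mul, hqh x hx]
        ring
      rw [Finset.sum_add_distrib, Finset.sum_sub_distrib, Finset.sum_add_distrib, eA, eC, eD]
      ring
    rw [e, mul_comm (Yh.card : ℝ) (X.card : ℝ), mul_div_assoc 2 ((∑ x ∈ X, ∑ y' ∈ Yh, fH x y') ^ 2)] at h
    exact h
  -- sums of the class averages
  have hSqv : (∑ y ∈ Y, qv y) = ((∑ x' ∈ Xv, ∑ y ∈ Y, fV x' y) + (∑ x ∈ X, ∑ y ∈ Y, (fP x y + fM x y))) / ((Xv.card : ℝ) + 2 * (X.card : ℝ)) := by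
    rw [Finset.sum_congr rfl hqv, ← Finset.sum_div, Finset.sum_add_distrib,
      Finset.sum_comm (s := Y) (t := Xv), Finset.sum_comm (s := Y) (t := X)]
  have hSqh : (∑ x ∈ X, qh x) = ((∑ x ∈ X, ∑ y' ∈ Yh, fH x y') + (∑ x ∈ X, ∑ y ∈ Y, (fP x y + fM x y))) / ((Yh.card : ℝ) + 2 * (Y.card : ℝ)) := by
    rw [Finset.sum_congr rfl hqh, ← Finset.sum_div, Finset.sum_add_distrib]
  -- the final scalar inequality: a perfect square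
  have hS : 0 ≤ (((∑ x ∈ X, ∑ y ∈ Y, (fP x y + fM x y)) ^ 2 / (X.card : ℝ) - 2 * ((∑ x' ∈ Xv, ∑ y ∈ Y, fV x' y) + (∑ x ∈ X, ∑ y ∈ Y, (fP x y + fM x y))) ^ 2 / ((Xv.card : ℝ) + 2 * (X.card : ℝ)) + ((Xv.card : ℝ) * (∑ x ∈ X, ∑ y ∈ Y, (fP x y + fM x y)) - 2 * (X.card : ℝ) * (∑ x' ∈ Xv, ∑ y ∈ Y, fV x' y)) ^ 2 / (2 * (X.card : ℝ) * ((Xv.card : ℝ) + 2 * (X.card : ℝ)) ^ 2)) / (Y.card : ℝ)) + (((∑ x ∈ X, ∑ y ∈ Y, (fP x y + fM x y)) ^ 2 / (Y.card : ℝ) - 2 * ((∑ x ∈ X, ∑ y' ∈ Yh, fH x y') + (∑ x ∈ X, ∑ y ∈ Y, (fP x y + fM x y))) ^ 2 / ((Yh.card : ℝ) + 2 * (Y.card : ℝ)) + ((Yh.card : ℝ) * (∑ x ∈ X, ∑ y ∈ Y, (fP x y + fM x y)) - 2 * (Y.card : ℝ) * (∑ x ∈ X, ∑ y' ∈ Yh, fH x y')) ^ 2 / (2 * (Y.card : ℝ) * ((Yh.card : ℝ) + 2 * (Y.card : ℝ)) ^ 2)) / (X.card : ℝ)) - (∑ x ∈ X, ∑ y ∈ Y, (fP x y + fM x y)) ^ 2 / ((X.card : ℝ) * (Y.card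 : ℝ)) + 2 * ((∑ y ∈ Y, qv y) * ((∑ x' ∈ Xv, ∑ y ∈ Y, fV x' y) / (Y.card : ℝ)))
      + 2 * (((∑ x ∈ X, ∑ y' ∈ Yh, fH x y') / (X.card : ℝ)) * (∑ x ∈ X, qh x)) + 4 * ((∑ y ∈ Y, qv y) * (∑ x ∈ X, qh x)) := by
    rw [hSqv, hSqh]
    generalize (∑ x' ∈ Xv, ∑ y ∈ Y, fV x' y) = v
    generalize (∑ x ∈ X, ∑ y' ∈ Yh, fH x y') = h
    generalize (∑ x ∈ X, ∑ y ∈ Y, (fP x y + fM x y)) = s
    generalize (X.card : ℝ) = a at ha hnv hnh ⊢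
    generalize (Y.card : ℝ) = c at hc hnv hnh ⊢
    generalize (Xv.card : ℝ) = av at hav hnv ⊢
    generalize (Yh.card : ℝ) = ch at hch hnh ⊢
    have key : (s ^ 2 / a - 2 * (v + s) ^ 2 / (av + 2 * a)
          + (av * s - 2 * a * v) ^ 2 / (2 * a * (av + 2 * a) ^ 2)) / c
        + (s ^ 2 / c - 2 * (h + s) ^ 2 / (ch + 2 * c)
          + (ch * s - 2 * c * h) ^ 2 / (2 * c * (ch + 2 * c) ^ 2)) / a
        - s ^ 2 / (a * c) + 2 * ((v + s) / (av + 2 * a) * (v / c))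
        + 2 * (h / a * ((h + s) / (ch + 2 * c)))
        + 4 * ((v + s) / (av + 2 * a) * ((h + s) / (ch + 2 * c)))
        = (2 * s - 2 * a * (v + s) / (av + 2 * a) - 2 * c * (h + s) / (ch + 2 * c)) ^ 2
            / (2 * a * c) := by
      field_simp
      ring
    rw [key]
    positivity
  linarith [hVA, hHA, hCZ, hE, hBV, hBH, hBS, hYs, hXs, hS]

end Cross

end Crest.Agent.Helper89.SW
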